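import Vale.Agent.Lib.P335.BasicAvg

/-!
# P335g, task A0: small abstract facts on class averages `cE`
-/

namespace Vale.Agent.Lib.P335g
open Finset Vale.Agent.Lib.P335

variable {α : Type} [DecidableEq α]

/-- tower property: coarse average of a fine average -/
theorem cE_tower (Ω : Finset α) (r r' : α → α → Prop) [DecidableRel r] [DecidableRel r']
    (hr : Equivalence r) (hr' : Equivalence r') (hle : ∀ x y, r x y → r' x y)
    (f : α → ℝ) {x : α} (hx : x ∈ Ω) :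
    cE Ω r' (cE Ω r f) x = cE Ω r' f x := by
  have _ := hx
  set g : α → ℝ := fun y => if r' x y then 1 else 0 with hg
  have hginv : ∀ y ∈ Ω, cE Ω r g y = g y := by
    intro y hy
    refine cE_of_inv Ω r hr g hy ?_
    intro z _ hyz
    simp only [hg]
    have : r' x z ↔ r' x y :=
      ⟨fun h => hr'.trans h (hr'.symm (hle y z hyz)), fun h => hr'.trans h (hle y z hyz)⟩
    simp only [this]
  have hsum : ∀ φ : α → ℝ, ∑ y ∈ fib Ω r' x, φ y = ∑ y ∈ Ω, g y * φ y := by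
    intro φ
    unfold fib
    rw [Finset.sum_filter]
    refine Finset.sum_congr rfl fun y _ => ?_
    simp only [hg]
    split_ifs <;> simp
  unfold cE
  congr 1
  change ∑ y ∈ fib Ω r' x, cE Ω r f y = ∑ y ∈ fib Ω r' x, f y
  rw [hsum, hsum, cE_symm Ω r hr g f]
  exact Finset.sum_congr rfl fun y hy => by rw [hginv y hy]

/-- restricting the ground set to a union of classes does not change the class average -/
theorem cE_filter (Ω : Finset α) (r : α → α → Prop) [DecidableRel r]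
    (S : α → Prop) [DecidablePred S] (hS : ∀ x ∈ Ω, ∀ y ∈ Ω, r x y → S x → S y)
    (f : α → ℝ) {x : α} (hx : x ∈ Ω) (hSx : S x) :
    cE (Ω.filter S) r f x = cE Ω r f x := by
  have hfib : fib (Ω.filter S) r x = fib Ω r x := by
    unfold fib
    ext y
    simp only [mem_filter]
    constructor
    · rintro ⟨⟨h1, _⟩, h3⟩
      exact ⟨h1, h3⟩
    · rintro ⟨h1, h3⟩
      exact ⟨⟨h1, hS x hx y h1 h3 hSx⟩, h3⟩
  unfold cE
  rw [hfib]

/-- class averages contract the sum of squares -/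
theorem cE_sq_le (Ω : Finset α) (r : α → α → Prop) [DecidableRel r] (hr : Equivalence r)
    (w : α → ℝ) : ∑ x ∈ Ω, (cE Ω r w x) ^ 2 ≤ ∑ x ∈ Ω, w x ^ 2 := by
  have h1 := cE_symm Ω r hr w (cE Ω r w)
  have h2 : ∑ x ∈ Ω, w x * cE Ω r (cE Ω r w) x = ∑ x ∈ Ω, w x * cE Ω r w x :=
    Finset.sum_congr rfl fun x hx => by rw [cE_idem Ω r hr w hx]
  rw [h2] at h1
  have h3 : 0 ≤ ∑ x ∈ Ω, (w x - cE Ω r w x) ^ 2 := Finset.sum_nonneg fun x _ => sq_nonneg _
  have h4 : ∑ x ∈ Ω, (w x - cE Ω r w x) ^ 2 =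
      ∑ x ∈ Ω, w x ^ 2 - 2 * ∑ x ∈ Ω, w x * cE Ω r w x + ∑ x ∈ Ω, cE Ω r w x * cE Ω r w x := by
    rw [Finset.mul_sum, ← Finset.sum_sub_distrib, ← Finset.sum_add_distrib]
    exact Finset.sum_congr rfl fun x _ => by ring
  have h5 : ∑ x ∈ Ω, (cE Ω r w x) ^ 2 = ∑ x ∈ Ω, cE Ω r w x * cE Ω r w x :=
    Finset.sum_congr rfl fun x _ => by ring
  rw [h4, h1] at h3
  rw [h5]
  linarith

/-- a sum over `Ω` is nonnegative as soon as it is nonnegative on every class -/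
theorem sum_nonneg_of_fib (Ω : Finset α) (r : α → α → Prop) [DecidableRel r] (hr : Equivalence r)
    (φ : α → ℝ) (h : ∀ x ∈ Ω, 0 ≤ ∑ y ∈ fib Ω r x, φ y) : 0 ≤ ∑ x ∈ Ω, φ x := by
  have h1 := cE_symm Ω r hr (fun _ => (1 : ℝ)) φ
  have h2 : ∀ x ∈ Ω, cE Ω r (fun _ => (1 : ℝ)) x = 1 :=
    fun x hx => cE_of_inv Ω r hr _ hx (fun _ _ _ => rfl)
  have h3 : ∑ x ∈ Ω, cE Ω r (fun _ => (1 : ℝ)) x * φ x = ∑ x ∈ Ω, φ x :=
    Finset.sum_congr rfl fun x hx => by rw [h2 x hx, one_mul]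
  rw [h3] at h1
  rw [← h1]
  refine Finset.sum_nonneg fun x hx => ?_
  rw [one_mul]
  unfold cE
  exact div_nonneg (h x hx) (Nat.cast_nonneg _)

/-- commuting class averages: the two defects have a nonnegative inner product -/
theorem comm_nonneg (Ω : Finset α) (r1 r2 : α → α → Prop) [DecidableRel r1] [DecidableRel r2]
    (h1 : Equivalence r1) (h2 : Equivalence r2)
    (hc : ∀ f : α → ℝ, ∀ x ∈ Ω, cE Ω r1 (cE Ω r2 f) x = cE Ω r2 (cE Ω r1 f) x)
    (g : α → ℝ) :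
    0 ≤ ∑ x ∈ Ω, (g x - cE Ω r1 g x) * (g x - cE Ω r2 g x) := by
  set u : α → ℝ := g - cE Ω r1 g with hu
  have hEu : ∀ x ∈ Ω, cE Ω r1 u x = 0 := by
    intro x hx
    rw [hu, cE_sub, cE_idem Ω r1 h1 g hx, sub_self]
  have h3 : ∀ v : α → ℝ, ∑ x ∈ Ω, u x * cE Ω r1 v x = 0 := by
    intro v
    rw [cE_symm Ω r1 h1]
    exact Finset.sum_eq_zero fun x hx => by rw [hEu x hx, zero_mul]
  have hg : g = u + cE Ω r1 g := by rw [hu]; abel
  have h5 : ∀ x ∈ Ω, g x - cE Ω r2 g x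
      = (u x - cE Ω r2 u x) + (cE Ω r1 g x - cE Ω r1 (cE Ω r2 g) x) := by
    intro x hx
    have e : cE Ω r2 g x = cE Ω r2 u x + cE Ω r2 (cE Ω r1 g) x := by
      conv_lhs => rw [hg]
      rw [cE_add]
    rw [e, hc g x hx]
    have : g x = u x + cE Ω r1 g x := by
      conv_lhs => rw [hg]
      rfl
    rw [this]
    ring
  have h6 : ∑ x ∈ Ω, (g x - cE Ω r1 g x) * (g x - cE Ω r2 g x)
      = ∑ x ∈ Ω, u x * (u x - cE Ω r2 u x) := by
    have : ∑ x ∈ Ω, (g x - cE Ω r1 g x) * (g x - cE Ω r2 g x) =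
        ∑ x ∈ Ω, (u x * (u x - cE Ω r2 u x)
          + (u x * cE Ω r1 g x - u x * cE Ω r1 (cE Ω r2 g) x)) := by
      refine Finset.sum_congr rfl fun x hx => ?_
      rw [h5 x hx]
      have : g x - cE Ω r1 g x = u x := rfl
      rw [this]; ring
    rw [this, Finset.sum_add_distrib, Finset.sum_sub_distrib, h3, h3]; ring
  rw [h6, sum_mul_sub_cE Ω r2 h2]
  exact Finset.sum_nonneg fun x _ => sq_nonneg _

/-- transport of a class average along a map that is bijective between the two classes -/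
theorem cE_transfer {β : Type} [DecidableEq β] (Ω : Finset α) (r : α → α → Prop) [DecidableRel r]
    (Ω' : Finset β) (r' : β → β → Prop) [DecidableRel r'] (θ : α → β) (F : β → ℝ) (x : α)
    (h : Set.BijOn θ (fib Ω r x) (fib Ω' r' (θ x))) :
    cE Ω r (fun y => F (θ y)) x = cE Ω' r' F (θ x) := by
  have hs : ∀ G : β → ℝ, ∑ y ∈ fib Ω r x, G (θ y) = ∑ z ∈ fib Ω' r' (θ x), G z := by
    intro G
    exact Finset.sum_nbij θ (fun y hy => h.mapsTo hy) h.injOn h.surjOn (fun _ _ => rfl)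
  have hcard : ((fib Ω r x).card : ℝ) = ((fib Ω' r' (θ x)).card : ℝ) := by
    have := hs (fun _ => (1 : ℝ))
    simpa using this
  unfold cE
  rw [hs F, hcard]

end Vale.Agent.Lib.P335g
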