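import Vale.Agent.Lib.P335.Knabe

/-!
# P335g, task A3: the combinatorial Knabe step with a summed lower bound on the disjoint terms

Same proof as `Vale.Agent.Lib.P335.knabe_comb`; in `term2` add the summand
`if (all six distinct) then G a b c d else 0` on the left (the inequality is then an equality in
every case), sum, and use `hdisj`.
-/

namespace Vale.Agent.Lib.P335g
open Finset Vale.Agent.Lib.P335

theorem knabe_comb2 {ι : Type} [Fintype ι] [DecidableEq ι] (G : ι → ι → ι → ι → ℝ)
    (h1 : ∀ a b c d, G b a c d = G a b c d)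
    (h2 : ∀ a b c d, G a b d c = G a b c d)
    (h3 : ∀ a b c d, G c d a b = G a b c d)
    (h0 : ∀ a c d, G a a c d = 0)
    (hdisj : 2 * ∑ a, ∑ b, G a b a b ≤ ∑ a, ∑ b, ∑ c, ∑ d,
      if (a ≠ b ∧ a ≠ c ∧ a ≠ d ∧ b ≠ c ∧ b ≠ d ∧ c ≠ d) then G a b c d else 0)
    (htri : ∀ a b c, a ≠ b → a ≠ c → b ≠ c → 0 ≤ G a b a c + G a b b c + G a c b c) :
    4 * ∑ a, ∑ b, G a b a b ≤ ∑ a, ∑ b, ∑ c, ∑ d, G a b c d := by
  have h0' : ∀ a b c, G a b c c = 0 := fun a b c => by rw [← h3]; exact h0 _ _ _
  set Z := ∑ a, ∑ b, G a b a b with hZ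
  set Y := ∑ a, ∑ b, ∑ c, G a b a c with hY
  -- (ii)
  have term2 : ∀ a b c d, (if c = a then G a b c d else 0) + (if c = b then G a b c d else 0)
      + (if d = a then G a b c d else 0) + (if d = b then G a b c d else 0)
      - (if c = a then (if d = b then G a b c d else 0) else 0)
      - (if c = b then (if d = a then G a b c d else 0) else 0)
      + (if (a ≠ b ∧ a ≠ c ∧ a ≠ d ∧ b ≠ c ∧ b ≠ d ∧ c ≠ d) then G a b c d else 0)
        ≤ G a b c d := by
    intro a b c d
    by_cases hab : a = b
    · subst hab; simp [h0]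
    by_cases hcd : c = d
    · subst hcd; simp [h0']
    by_cases hca : c = a
    · subst hca
      have hcb : ¬ c = b := hab
      have hdc : ¬ d = c := fun h => hcd h.symm
      by_cases hdb : d = b
      · subst hdb; simp [hcb, hdc]
      · simp [hcb, hdc, hdb]
    by_cases hcb : c = b
    · subst hcb
      have hdc : ¬ d = c := fun h => hcd h.symm
      by_cases hda : d = a
      · subst hda; simp [hca, hdc]
      · simp [hca, hdc, hda]
    by_cases hda : d = a
    · subst hda
      have hdb : ¬ d = b := hab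
      simp [hca, hcb, hdb]
    by_cases hdb : d = b
    · subst hdb
      simp [hca, hcb, hda]
    · have hall : a ≠ b ∧ a ≠ c ∧ a ≠ d ∧ b ≠ c ∧ b ≠ d ∧ c ≠ d :=
        ⟨hab, fun h => hca h.symm, fun h => hda h.symm, fun h => hcb h.symm,
          fun h => hdb h.symm, hcd⟩
      rw [if_pos hall]
      simp only [hca, hcb, hda, hdb, if_false]
      linarith
  have sA : ∑ a, ∑ b, ∑ c, ∑ d, (if c = a then G a b c d else 0) = Y := by
    rw [hY]
    refine sum_congr rfl fun a _ => sum_congr rfl fun b _ => ?_
    have : ∀ c, ∑ d, (if c = a then G a b c d else 0) = if c = a then ∑ d, G a b c d else 0 := by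
      intro c; split_ifs <;> simp
    simp only [this, sum_ite_eq', mem_univ, if_true]
  have sB : ∑ a, ∑ b, ∑ c, ∑ d, (if c = b then G a b c d else 0) = Y := by
    rw [hY, sum_comm]
    refine sum_congr rfl fun b _ => sum_congr rfl fun a _ => ?_
    have : ∀ c, ∑ d, (if c = b then G a b c d else 0) = if c = b then ∑ d, G a b c d else 0 := by
      intro c; split_ifs <;> simp
    simp only [this, sum_ite_eq', mem_univ, if_true]
    exact sum_congr rfl fun d _ => h1 _ _ _ _
  have sC : ∑ a, ∑ b, ∑ c, ∑ d, (if d = a then G a b c d else 0) = Y := by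
    rw [hY]
    refine sum_congr rfl fun a _ => sum_congr rfl fun b _ => sum_congr rfl fun c _ => ?_
    simp only [sum_ite_eq', mem_univ, if_true]
    exact h2 _ _ _ _
  have sD : ∑ a, ∑ b, ∑ c, ∑ d, (if d = b then G a b c d else 0) = Y := by
    rw [hY, sum_comm]
    refine sum_congr rfl fun b _ => sum_congr rfl fun a _ => sum_congr rfl fun c _ => ?_
    simp only [sum_ite_eq', mem_univ, if_true]
    rw [h2, h1]
  have sE : ∑ a, ∑ b, ∑ c, ∑ d, (if c = a then (if d = b then G a b c d else 0) else 0) = Z := by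
    rw [hZ]
    refine sum_congr rfl fun a _ => sum_congr rfl fun b _ => ?_
    have : ∀ c, ∑ d, (if c = a then (if d = b then G a b c d else 0) else 0)
        = if c = a then G a b c b else 0 := by
      intro c; split_ifs <;> simp
    simp only [this, sum_ite_eq', mem_univ, if_true]
  have sF : ∑ a, ∑ b, ∑ c, ∑ d, (if c = b then (if d = a then G a b c d else 0) else 0) = Z := by
    rw [hZ]
    refine sum_congr rfl fun a _ => sum_congr rfl fun b _ => ?_
    have : ∀ c, ∑ d, (if c = b then (if d = a then G a b c d else 0) else 0)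
        = if c = b then G a b c a else 0 := by
      intro c; split_ifs <;> simp
    simp only [this, sum_ite_eq', mem_univ, if_true]
    exact h2 _ _ _ _
  have step2 : 4 * Y - 2 * Z + (∑ a, ∑ b, ∑ c, ∑ d,
      if (a ≠ b ∧ a ≠ c ∧ a ≠ d ∧ b ≠ c ∧ b ≠ d ∧ c ≠ d) then G a b c d else 0)
      ≤ ∑ a, ∑ b, ∑ c, ∑ d, G a b c d := by
    have := sum_le_sum fun a (_ : a ∈ (univ : Finset ι)) => sum_le_sum fun b (_ : b ∈ (univ : Finset ι)) =>
      sum_le_sum fun c (_ : c ∈ (univ : Finset ι)) => sum_le_sum fun d (_ : d ∈ (univ : Finset ι)) =>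
        term2 a b c d
    simp only [sum_sub_distrib, sum_add_distrib, sA, sB, sC, sD, sE, sF] at this
    linarith
  -- (i)
  have term1 : ∀ a b c, (if a = b then G a c a c else 0) + (if a = c then G a b a b else 0)
      + (if b = c then G a b a b else 0) ≤ G a b a c + G a b b c + G a c b c := by
    intro a b c
    by_cases hab : a = b
    · subst hab
      by_cases hac : a = c
      · subst hac; simp [h0]
      · simp [h0, hac]
    by_cases hac : a = c
    · subst hac
      have hba : ¬ b = a := fun h => hab h.symm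
      simp only [hab, hba, if_false, if_true, h0', h0, zero_add, add_zero]
      rw [h2]
    by_cases hbc : b = c
    · subst hbc
      simp [hab, h0']
    · simp only [hab, hac, hbc, if_false]
      have := htri a b c hab hac hbc
      linarith
  have tA : ∑ a, ∑ b, ∑ c, (if a = b then G a c a c else 0) = Z := by
    rw [hZ]
    refine sum_congr rfl fun a _ => ?_
    have : ∀ b, ∑ c, (if a = b then G a c a c else 0) = if a = b then ∑ c, G a c a c else 0 := by
      intro b; split_ifs <;> simp
    simp only [this, sum_ite_eq, mem_univ, if_true]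
  have tB : ∑ a, ∑ b, ∑ c, (if a = c then G a b a b else 0) = Z := by
    rw [hZ]
    refine sum_congr rfl fun a _ => sum_congr rfl fun b _ => ?_
    simp only [sum_ite_eq, mem_univ, if_true]
  have tC : ∑ a, ∑ b, ∑ c, (if b = c then G a b a b else 0) = Z := by
    rw [hZ]
    refine sum_congr rfl fun a _ => sum_congr rfl fun b _ => ?_
    simp only [sum_ite_eq, mem_univ, if_true]
  have uB : ∑ a, ∑ b, ∑ c, G a b b c = Y := by
    rw [hY, sum_comm]
    exact sum_congr rfl fun b _ => sum_congr rfl fun a _ => sum_congr rfl fun c _ => h1 _ _ _ _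
  have uC : ∑ a, ∑ b, ∑ c, G a c b c = Y := by
    rw [hY]
    calc ∑ a, ∑ b, ∑ c, G a c b c = ∑ a, ∑ c, ∑ b, G a c b c :=
          sum_congr rfl fun a _ => sum_comm
      _ = ∑ c, ∑ a, ∑ b, G a c b c := sum_comm
      _ = ∑ c, ∑ a, ∑ b, G c a c b :=
          sum_congr rfl fun c _ => sum_congr rfl fun a _ => sum_congr rfl fun b _ => by
            rw [h1 c a b c, h2 c a c b]
  have step1 : 3 * Z ≤ 3 * Y := by
    have := sum_le_sum fun a (_ : a ∈ (univ : Finset ι)) => sum_le_sum fun b (_ : b ∈ (univ : Finset ι)) =>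
      sum_le_sum fun c (_ : c ∈ (univ : Finset ι)) => term1 a b c
    simp only [sum_add_distrib, tA, tB, tC, uB, uC] at this
    rw [← hY] at this
    linarith
  linarith

end Vale.Agent.Lib.P335g
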