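import Vale.Agent.Lib.P335.BasicAvg

/-!
# P335g, task A2: two class averages commute when classes can be merged uniquely

Proof idea.  Write `F1 x = fib Ω r1 x`, `F2 x = fib Ω r2 x`.
* For `y ∈ F1 x` the classes `F2 x` and `F2 y` have the same cardinality: `z ↦` the unique
  `w` with `r2 y w`, `r1 z w` is a bijection (inverse: same construction with base point `y`).
* Both iterated averages equal the average of `f (m y z)` over `(y, z) ∈ F1 x × F2 x`.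
-/

namespace Vale.Agent.Lib.P335g
open Finset Vale.Agent.Lib.P335

variable {α : Type} [DecidableEq α]

theorem merge_sum (Ω : Finset α) (r1 r2 : α → α → Prop) [DecidableRel r1] [DecidableRel r2]
    (h1 : Equivalence r1) (h2 : Equivalence r2)
    (hm : ∀ x ∈ Ω, ∀ y ∈ Ω, ∀ z ∈ Ω, r1 x y → r2 x z → ∃ w ∈ Ω, r2 y w ∧ r1 z w)
    (hu : ∀ w ∈ Ω, ∀ w' ∈ Ω, r1 w w' → r2 w w' → w = w')
    {x : α} (hx : x ∈ Ω) (m : α → α → α)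
    (hs : ∀ y ∈ fib Ω r1 x, ∀ z ∈ fib Ω r2 x, m y z ∈ Ω ∧ r2 y (m y z) ∧ r1 z (m y z))
    (g : α → ℝ) {y : α} (hy : y ∈ fib Ω r1 x) :
    ∑ w ∈ fib Ω r2 y, g w = ∑ z ∈ fib Ω r2 x, g (m y z) := by
  obtain ⟨hyΩ, hxy⟩ := mem_filter.mp hy
  symm
  refine Finset.sum_bij (fun z _ => m y z) ?_ ?_ ?_ ?_
  · intro z hz
    obtain ⟨a, b, _⟩ := hs y hy z hz
    exact mem_filter.mpr ⟨a, b⟩
  · intro z hz z' hz' he
    obtain ⟨_, _, c⟩ := hs y hy z hz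
    obtain ⟨_, _, c'⟩ := hs y hy z' hz'
    obtain ⟨hzΩ, hxz⟩ := mem_filter.mp hz
    obtain ⟨hzΩ', hxz'⟩ := mem_filter.mp hz'
    rw [← he] at c'
    exact hu z hzΩ z' hzΩ' (h1.trans c (h1.symm c')) (h2.trans (h2.symm hxz) hxz')
  · intro w hw
    obtain ⟨hwΩ, hyw⟩ := mem_filter.mp hw
    obtain ⟨z, hzΩ, hxz, hwz⟩ := hm y hyΩ x hx w hwΩ (h1.symm hxy) hyw
    have hz : z ∈ fib Ω r2 x := mem_filter.mpr ⟨hzΩ, hxz⟩
    refine ⟨z, hz, ?_⟩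
    obtain ⟨a, b, c⟩ := hs y hy z hz
    exact hu _ a w hwΩ (h1.trans (h1.symm c) (h1.symm hwz)) (h2.trans (h2.symm b) hyw)
  · intro z _
    rfl

theorem cE_comm_of_merge (Ω : Finset α) (r1 r2 : α → α → Prop) [DecidableRel r1] [DecidableRel r2]
    (h1 : Equivalence r1) (h2 : Equivalence r2)
    (hm : ∀ x ∈ Ω, ∀ y ∈ Ω, ∀ z ∈ Ω, r1 x y → r2 x z → ∃ w ∈ Ω, r2 y w ∧ r1 z w)
    (hu : ∀ w ∈ Ω, ∀ w' ∈ Ω, r1 w w' → r2 w w' → w = w')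
    (f : α → ℝ) {x : α} (hx : x ∈ Ω) :
    cE Ω r1 (cE Ω r2 f) x = cE Ω r2 (cE Ω r1 f) x := by
  classical
  -- the merging function
  have hex : ∀ y z, ∃ w, y ∈ fib Ω r1 x → z ∈ fib Ω r2 x → w ∈ Ω ∧ r2 y w ∧ r1 z w := by
    intro y z
    by_cases hy : y ∈ fib Ω r1 x
    · by_cases hz : z ∈ fib Ω r2 x
      · obtain ⟨hyΩ, hxy⟩ := mem_filter.mp hy
        obtain ⟨hzΩ, hxz⟩ := mem_filter.mp hz
        obtain ⟨w, a, b, c⟩ := hm x hx y hyΩ z hzΩ hxy hxz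
        exact ⟨w, fun _ _ => ⟨a, b, c⟩⟩
      · exact ⟨x, fun _ h => absurd h hz⟩
    · exact ⟨x, fun h => absurd h hy⟩
  choose m hmm using hex
  have hs : ∀ y ∈ fib Ω r1 x, ∀ z ∈ fib Ω r2 x, m y z ∈ Ω ∧ r2 y (m y z) ∧ r1 z (m y z) :=
    fun y hy z hz => hmm y z hy hz
  have hs' : ∀ z ∈ fib Ω r2 x, ∀ y ∈ fib Ω r1 x,
      (fun z y => m y z) z y ∈ Ω ∧ r1 z ((fun z y => m y z) z y) ∧ r2 y ((fun z y => m y z) z y) :=
    fun z hz y hy => ⟨(hmm y z hy hz).1, (hmm y z hy hz).2.2, (hmm y z hy hz).2.1⟩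
  have hm' : ∀ x ∈ Ω, ∀ y ∈ Ω, ∀ z ∈ Ω, r2 x y → r1 x z → ∃ w ∈ Ω, r1 y w ∧ r2 z w := by
    intro a ha b hb c hc hab hac
    obtain ⟨w, hw, e1, e2⟩ := hm a ha c hc b hb hac hab
    exact ⟨w, hw, e2, e1⟩
  have hu' : ∀ w ∈ Ω, ∀ w' ∈ Ω, r2 w w' → r1 w w' → w = w' :=
    fun w hw w' hw' a b => hu w hw w' hw' b a
  have S2 : ∀ (g : α → ℝ), ∀ y ∈ fib Ω r1 x,
      ∑ w ∈ fib Ω r2 y, g w = ∑ z ∈ fib Ω r2 x, g (m y z) :=
    fun g y hy => merge_sum Ω r1 r2 h1 h2 hm hu hx m hs g hy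
  have S1 : ∀ (g : α → ℝ), ∀ z ∈ fib Ω r2 x,
      ∑ w ∈ fib Ω r1 z, g w = ∑ y ∈ fib Ω r1 x, g (m y z) :=
    fun g z hz => merge_sum Ω r2 r1 h2 h1 hm' hu' hx (fun z y => m y z) hs' g hz
  have C2 : ∀ y ∈ fib Ω r1 x, ((fib Ω r2 y).card : ℝ) = ((fib Ω r2 x).card : ℝ) := by
    intro y hy
    have := S2 (fun _ => (1 : ℝ)) y hy
    simpa using this
  have C1 : ∀ z ∈ fib Ω r2 x, ((fib Ω r1 z).card : ℝ) = ((fib Ω r1 x).card : ℝ) := by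
    intro z hz
    have := S1 (fun _ => (1 : ℝ)) z hz
    simpa using this
  have L : cE Ω r1 (cE Ω r2 f) x
      = (∑ y ∈ fib Ω r1 x, ∑ z ∈ fib Ω r2 x, f (m y z)) / ((fib Ω r2 x).card : ℝ)
        / ((fib Ω r1 x).card : ℝ) := by
    unfold cE
    congr 1
    rw [Finset.sum_div]
    refine Finset.sum_congr rfl fun y hy => ?_
    rw [S2 f y hy, C2 y hy]
  have R : cE Ω r2 (cE Ω r1 f) x
      = (∑ z ∈ fib Ω r2 x, ∑ y ∈ fib Ω r1 x, f (m y z)) / ((fib Ω r1 x).card : ℝ)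
        / ((fib Ω r2 x).card : ℝ) := by
    unfold cE
    congr 1
    rw [Finset.sum_div]
    refine Finset.sum_congr rfl fun z hz => ?_
    rw [S1 f z hz, C1 z hz]
  rw [L, R, Finset.sum_comm, div_div, div_div, mul_comm]

end Vale.Agent.Lib.P335g
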