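import Vale.Agent.Lib.P335g.AbsBasic

/-!
# P335g, task A1: the five-projection inequality

Operators on functions on `Ω`: `E1 = cE r1`, `E2 = cE r2`, `A = cE ra`, `B = cE rb`, `C = cE rc`.
All are symmetric idempotents for `<u, v> = ∑ x ∈ Ω, u x * v x`.
`ra, rc` refine `r1` and `rb, rc` refine `r2`, so `E1 A = A E1 = E1`, `E1 C = C E1 = E1`,
`E2 B = B E2 = E2`, `E2 C = C E2 = E2` (`cE_tower`, `cE_cE_of_le`).
`A, B, C` commute pairwise, `E1` commutes with `B`, `E2` commutes with `A`.  Put `g = A B C f`.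
Then `E1 g = B E1 f`, `E2 g = A E2 f` and

  `<(1-E1) f, (1-E2) f> - |(1-C) f|^2 - <(1-E1) g, (1-E2) g>`
     `= <f, C f> - <f, E1 f> - <f, E2 f> - <f, g> + <f, A E2 f> + <f, B E1 f>`
     `= |(1-B)(AC-E1) f|^2 + |(1-A)(BC-E2) f|^2 + |C(1-A)(1-B) f|^2 >= 0`.
-/

namespace Vale.Agent.Lib.P335g
open Finset Vale.Agent.Lib.P335

variable {α : Type} [DecidableEq α]

/-! ### class averages cut off outside `Ω`, so that operator identities hold as equalities -/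

/-- the class average, set to zero outside `Ω` -/
noncomputable def fPj (Ω : Finset α) (r : α → α → Prop) [DecidableRel r] (u : α → ℝ) : α → ℝ :=
  fun x => if x ∈ Ω then cE Ω r u x else 0

/-- the inner product of two functions on `Ω` -/
noncomputable def fIp (Ω : Finset α) (u v : α → ℝ) : ℝ := ∑ x ∈ Ω, u x * v x

theorem fPj_apply (Ω : Finset α) (r : α → α → Prop) [DecidableRel r] (u : α → ℝ) {x : α}
    (hx : x ∈ Ω) : fPj Ω r u x = cE Ω r u x := if_pos hx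

theorem cE_fPj (Ω : Finset α) (r r' : α → α → Prop) [DecidableRel r] [DecidableRel r']
    (u : α → ℝ) : cE Ω r (fPj Ω r' u) = cE Ω r (cE Ω r' u) :=
  funext fun x => cE_ext Ω r _ _ (fun _ hy => fPj_apply Ω r' u hy) x

theorem fPj_eq_of (Ω : Finset α) (r r' : α → α → Prop) [DecidableRel r] [DecidableRel r']
    (u v : α → ℝ) (h : ∀ x ∈ Ω, cE Ω r u x = cE Ω r' v x) : fPj Ω r u = fPj Ω r' v := by
  funext x
  unfold fPj
  by_cases hx : x ∈ Ω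
  · rw [if_pos hx, if_pos hx, h x hx]
  · rw [if_neg hx, if_neg hx]

theorem fPj_comm (Ω : Finset α) (r r' : α → α → Prop) [DecidableRel r] [DecidableRel r']
    (h : ∀ f : α → ℝ, ∀ x ∈ Ω, cE Ω r (cE Ω r' f) x = cE Ω r' (cE Ω r f) x) (u : α → ℝ) :
    fPj Ω r (fPj Ω r' u) = fPj Ω r' (fPj Ω r u) := by
  apply fPj_eq_of
  intro x hx
  rw [cE_fPj, cE_fPj]
  exact h u x hx

theorem fPj_idem (Ω : Finset α) (r : α → α → Prop) [DecidableRel r] (hr : Equivalence r)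
    (u : α → ℝ) : fPj Ω r (fPj Ω r u) = fPj Ω r u := by
  apply fPj_eq_of
  intro x hx
  rw [cE_fPj]
  exact cE_idem Ω r hr u hx

theorem fPj_coarse_fine (Ω : Finset α) (r r' : α → α → Prop) [DecidableRel r] [DecidableRel r']
    (hr : Equivalence r) (hr' : Equivalence r') (hle : ∀ x y, r x y → r' x y) (u : α → ℝ) :
    fPj Ω r' (fPj Ω r u) = fPj Ω r' u := by
  apply fPj_eq_of
  intro x hx
  rw [cE_fPj]
  exact cE_tower Ω r r' hr hr' hle u hx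

theorem fPj_fine_coarse (Ω : Finset α) (r r' : α → α → Prop) [DecidableRel r] [DecidableRel r']
    (hr : Equivalence r) (hr' : Equivalence r') (hle : ∀ x y, r x y → r' x y) (u : α → ℝ) :
    fPj Ω r (fPj Ω r' u) = fPj Ω r' u := by
  apply fPj_eq_of
  intro x hx
  rw [cE_fPj]
  exact cE_cE_of_le Ω r r' hr hr' hle u hx

theorem fPj_sub (Ω : Finset α) (r : α → α → Prop) [DecidableRel r] (u v : α → ℝ) :
    fPj Ω r (u - v) = fPj Ω r u - fPj Ω r v := by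
  funext x
  simp only [fPj, Pi.sub_apply]
  by_cases hx : x ∈ Ω
  · rw [if_pos hx, if_pos hx, if_pos hx, cE_sub]
  · rw [if_neg hx, if_neg hx, if_neg hx, sub_zero]

theorem fPj_add (Ω : Finset α) (r : α → α → Prop) [DecidableRel r] (u v : α → ℝ) :
    fPj Ω r (u + v) = fPj Ω r u + fPj Ω r v := by
  funext x
  simp only [fPj, Pi.add_apply]
  by_cases hx : x ∈ Ω
  · rw [if_pos hx, if_pos hx, if_pos hx, cE_add]
  · rw [if_neg hx, if_neg hx, if_neg hx, add_zero]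

theorem fIp_fPj (Ω : Finset α) (r : α → α → Prop) [DecidableRel r] (hr : Equivalence r)
    (u v : α → ℝ) : fIp Ω (fPj Ω r u) v = fIp Ω u (fPj Ω r v) := by
  unfold fIp
  have e1 : ∑ x ∈ Ω, fPj Ω r u x * v x = ∑ x ∈ Ω, cE Ω r u x * v x :=
    Finset.sum_congr rfl fun x hx => by rw [fPj_apply Ω r u hx]
  have e2 : ∑ x ∈ Ω, u x * fPj Ω r v x = ∑ x ∈ Ω, u x * cE Ω r v x :=
    Finset.sum_congr rfl fun x hx => by rw [fPj_apply Ω r v hx]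
  rw [e1, e2, cE_symm Ω r hr]

theorem fIp_sub_left (Ω : Finset α) (u v w : α → ℝ) :
    fIp Ω (u - v) w = fIp Ω u w - fIp Ω v w := by
  unfold fIp
  rw [← Finset.sum_sub_distrib]
  exact Finset.sum_congr rfl fun x _ => by simp only [Pi.sub_apply]; ring

theorem fIp_sub_right (Ω : Finset α) (u v w : α → ℝ) :
    fIp Ω w (u - v) = fIp Ω w u - fIp Ω w v := by
  unfold fIp
  rw [← Finset.sum_sub_distrib]
  exact Finset.sum_congr rfl fun x _ => by simp only [Pi.sub_apply]; ring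

theorem fIp_add_left (Ω : Finset α) (u v w : α → ℝ) :
    fIp Ω (u + v) w = fIp Ω u w + fIp Ω v w := by
  unfold fIp
  rw [← Finset.sum_add_distrib]
  exact Finset.sum_congr rfl fun x _ => by simp only [Pi.add_apply]; ring

theorem fIp_add_right (Ω : Finset α) (u v w : α → ℝ) :
    fIp Ω w (u + v) = fIp Ω w u + fIp Ω w v := by
  unfold fIp
  rw [← Finset.sum_add_distrib]
  exact Finset.sum_congr rfl fun x _ => by simp only [Pi.add_apply]; ring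

theorem fIp_self_nonneg (Ω : Finset α) (u : α → ℝ) : 0 ≤ fIp Ω u u :=
  Finset.sum_nonneg fun x _ => mul_self_nonneg (u x)

section
variable (Ω : Finset α) (r1 r2 ra rb rc : α → α → Prop)
  [DecidableRel r1] [DecidableRel r2] [DecidableRel ra] [DecidableRel rb] [DecidableRel rc]

theorem five_proj
    (h1 : Equivalence r1) (h2 : Equivalence r2) (ha : Equivalence ra) (hb : Equivalence rb)
    (hc : Equivalence rc)
    (la1 : ∀ x y, ra x y → r1 x y) (lc1 : ∀ x y, rc x y → r1 x y)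
    (lb2 : ∀ x y, rb x y → r2 x y) (lc2 : ∀ x y, rc x y → r2 x y)
    (cab : ∀ f : α → ℝ, ∀ x ∈ Ω, cE Ω ra (cE Ω rb f) x = cE Ω rb (cE Ω ra f) x)
    (cac : ∀ f : α → ℝ, ∀ x ∈ Ω, cE Ω ra (cE Ω rc f) x = cE Ω rc (cE Ω ra f) x)
    (cbc : ∀ f : α → ℝ, ∀ x ∈ Ω, cE Ω rb (cE Ω rc f) x = cE Ω rc (cE Ω rb f) x)
    (c1b : ∀ f : α → ℝ, ∀ x ∈ Ω, cE Ω r1 (cE Ω rb f) x = cE Ω rb (cE Ω r1 f) x)
    (c2a : ∀ f : α → ℝ, ∀ x ∈ Ω, cE Ω r2 (cE Ω ra f) x = cE Ω ra (cE Ω r2 f) x)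
    (f : α → ℝ) :
    ∑ x ∈ Ω, (f x - cE Ω rc f x) ^ 2 +
      ∑ x ∈ Ω, (cE Ω ra (cE Ω rb (cE Ω rc f)) x - cE Ω r1 (cE Ω ra (cE Ω rb (cE Ω rc f))) x) *
        (cE Ω ra (cE Ω rb (cE Ω rc f)) x - cE Ω r2 (cE Ω ra (cE Ω rb (cE Ω rc f))) x) ≤
      ∑ x ∈ Ω, (f x - cE Ω r1 f x) * (f x - cE Ω r2 f x) := by
  -- rewriting rules for words in the five operators; normal form: A, B, C, E from the outside
  have wBA : ∀ u, fPj Ω rb (fPj Ω ra u) = fPj Ω ra (fPj Ω rb u) :=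
    fun u => (fPj_comm Ω ra rb cab u).symm
  have wCA : ∀ u, fPj Ω rc (fPj Ω ra u) = fPj Ω ra (fPj Ω rc u) :=
    fun u => (fPj_comm Ω ra rc cac u).symm
  have wCB : ∀ u, fPj Ω rc (fPj Ω rb u) = fPj Ω rb (fPj Ω rc u) :=
    fun u => (fPj_comm Ω rb rc cbc u).symm
  have w1B : ∀ u, fPj Ω r1 (fPj Ω rb u) = fPj Ω rb (fPj Ω r1 u) := fPj_comm Ω r1 rb c1b
  have w2A : ∀ u, fPj Ω r2 (fPj Ω ra u) = fPj Ω ra (fPj Ω r2 u) := fPj_comm Ω r2 ra c2a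
  have wAA : ∀ u, fPj Ω ra (fPj Ω ra u) = fPj Ω ra u := fPj_idem Ω ra ha
  have wBB : ∀ u, fPj Ω rb (fPj Ω rb u) = fPj Ω rb u := fPj_idem Ω rb hb
  have wCC : ∀ u, fPj Ω rc (fPj Ω rc u) = fPj Ω rc u := fPj_idem Ω rc hc
  have w11 : ∀ u, fPj Ω r1 (fPj Ω r1 u) = fPj Ω r1 u := fPj_idem Ω r1 h1
  have w22 : ∀ u, fPj Ω r2 (fPj Ω r2 u) = fPj Ω r2 u := fPj_idem Ω r2 h2
  have w1A : ∀ u, fPj Ω r1 (fPj Ω ra u) = fPj Ω r1 u := fPj_coarse_fine Ω ra r1 ha h1 la1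
  have w1C : ∀ u, fPj Ω r1 (fPj Ω rc u) = fPj Ω r1 u := fPj_coarse_fine Ω rc r1 hc h1 lc1
  have w2B : ∀ u, fPj Ω r2 (fPj Ω rb u) = fPj Ω r2 u := fPj_coarse_fine Ω rb r2 hb h2 lb2
  have w2C : ∀ u, fPj Ω r2 (fPj Ω rc u) = fPj Ω r2 u := fPj_coarse_fine Ω rc r2 hc h2 lc2
  have wA1 : ∀ u, fPj Ω ra (fPj Ω r1 u) = fPj Ω r1 u := fPj_fine_coarse Ω ra r1 ha h1 la1
  have wC1 : ∀ u, fPj Ω rc (fPj Ω r1 u) = fPj Ω r1 u := fPj_fine_coarse Ω rc r1 hc h1 lc1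
  have wB2 : ∀ u, fPj Ω rb (fPj Ω r2 u) = fPj Ω r2 u := fPj_fine_coarse Ω rb r2 hb h2 lb2
  have wC2 : ∀ u, fPj Ω rc (fPj Ω r2 u) = fPj Ω r2 u := fPj_fine_coarse Ω rc r2 hc h2 lc2
  have wAB1 : ∀ u, fPj Ω ra (fPj Ω rb (fPj Ω r1 u)) = fPj Ω rb (fPj Ω r1 u) := by
    intro u
    rw [← wBA, wA1]
  have wB12 : ∀ u, fPj Ω rb (fPj Ω r1 (fPj Ω r2 u)) = fPj Ω r1 (fPj Ω r2 u) := by
    intro u
    rw [← w1B, wB2]
  have sA := fIp_fPj Ω ra ha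
  have sB := fIp_fPj Ω rb hb
  have sC := fIp_fPj Ω rc hc
  have s1 := fIp_fPj Ω r1 h1
  have s2 := fIp_fPj Ω r2 h2
  -- the three squares
  have Q1 := fIp_self_nonneg Ω
    ((fPj Ω ra (fPj Ω rc f) - fPj Ω r1 f) - fPj Ω rb (fPj Ω ra (fPj Ω rc f) - fPj Ω r1 f))
  have Q2 := fIp_self_nonneg Ω
    ((fPj Ω rb (fPj Ω rc f) - fPj Ω r2 f) - fPj Ω ra (fPj Ω rb (fPj Ω rc f) - fPj Ω r2 f))
  have Q3 := fIp_self_nonneg Ω
    (fPj Ω rc f - fPj Ω ra (fPj Ω rc f) - fPj Ω rb (fPj Ω rc f)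
      + fPj Ω ra (fPj Ω rb (fPj Ω rc f)))
  -- the three sums of the statement
  have L1 : ∑ x ∈ Ω, (f x - cE Ω rc f x) ^ 2 = fIp Ω (f - fPj Ω rc f) (f - fPj Ω rc f) := by
    unfold fIp
    refine Finset.sum_congr rfl fun x hx => ?_
    simp only [Pi.sub_apply, fPj_apply Ω _ _ hx]
    ring
  have L2 : ∑ x ∈ Ω, (cE Ω ra (cE Ω rb (cE Ω rc f)) x
        - cE Ω r1 (cE Ω ra (cE Ω rb (cE Ω rc f))) x) *
        (cE Ω ra (cE Ω rb (cE Ω rc f)) x - cE Ω r2 (cE Ω ra (cE Ω rb (cE Ω rc f))) x) =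
      fIp Ω (fPj Ω ra (fPj Ω rb (fPj Ω rc f)) - fPj Ω r1 (fPj Ω ra (fPj Ω rb (fPj Ω rc f))))
        (fPj Ω ra (fPj Ω rb (fPj Ω rc f)) - fPj Ω r2 (fPj Ω ra (fPj Ω rb (fPj Ω rc f)))) := by
    unfold fIp
    refine Finset.sum_congr rfl fun x hx => ?_
    simp only [Pi.sub_apply, fPj_apply Ω _ _ hx, cE_fPj]
  have R : ∑ x ∈ Ω, (f x - cE Ω r1 f x) * (f x - cE Ω r2 f x) =
      fIp Ω (f - fPj Ω r1 f) (f - fPj Ω r2 f) := by
    unfold fIp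
    refine Finset.sum_congr rfl fun x hx => ?_
    simp only [Pi.sub_apply, fPj_apply Ω _ _ hx]
  rw [L1, L2, R]
  simp only [fPj_sub, fPj_add, fIp_sub_left, fIp_sub_right, fIp_add_left, fIp_add_right,
    sA, sB, sC, s1, s2, wBA, wCA, wCB, w1B, w2A, wAA, wBB, wCC, w11, w22, w1A, w1C, w2B, w2C,
    wA1, wC1, wB2, wC2, wAB1, wB12] at Q1 Q2 Q3 ⊢
  linarith

/-- `(1 - E1) g = B (A C f - E1 f)` -/
theorem five_g1
    (h1 : Equivalence r1) (ha : Equivalence ra) (hb : Equivalence rb) (hc : Equivalence rc)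
    (la1 : ∀ x y, ra x y → r1 x y) (lc1 : ∀ x y, rc x y → r1 x y)
    (cab : ∀ f : α → ℝ, ∀ x ∈ Ω, cE Ω ra (cE Ω rb f) x = cE Ω rb (cE Ω ra f) x)
    (c1b : ∀ f : α → ℝ, ∀ x ∈ Ω, cE Ω r1 (cE Ω rb f) x = cE Ω rb (cE Ω r1 f) x)
    (f : α → ℝ) {x : α} (hx : x ∈ Ω) :
    cE Ω ra (cE Ω rb (cE Ω rc f)) x - cE Ω r1 (cE Ω ra (cE Ω rb (cE Ω rc f))) x =
      cE Ω rb (fun y => cE Ω ra (cE Ω rc f) y - cE Ω r1 f y) x := by
  have e1 : cE Ω r1 (cE Ω ra (cE Ω rb (cE Ω rc f))) x = cE Ω rb (cE Ω r1 f) x := by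
    rw [cE_tower Ω ra r1 ha h1 la1 _ hx, c1b _ x hx]
    exact cE_ext Ω rb _ _ (fun y hy => cE_tower Ω rc r1 hc h1 lc1 f hy) x
  have e2 : cE Ω rb (fun y => cE Ω ra (cE Ω rc f) y - cE Ω r1 f y) x =
      cE Ω rb (cE Ω ra (cE Ω rc f)) x - cE Ω rb (cE Ω r1 f) x :=
    cE_sub Ω rb (cE Ω ra (cE Ω rc f)) (cE Ω r1 f) x
  rw [e1, e2, cab _ x hx]

/-- `(1 - E2) g = A (B C f - E2 f)` -/
theorem five_g2
    (h2 : Equivalence r2) (ha : Equivalence ra) (hb : Equivalence rb) (hc : Equivalence rc)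
    (lb2 : ∀ x y, rb x y → r2 x y) (lc2 : ∀ x y, rc x y → r2 x y)
    (c2a : ∀ f : α → ℝ, ∀ x ∈ Ω, cE Ω r2 (cE Ω ra f) x = cE Ω ra (cE Ω r2 f) x)
    (f : α → ℝ) {x : α} (hx : x ∈ Ω) :
    cE Ω ra (cE Ω rb (cE Ω rc f)) x - cE Ω r2 (cE Ω ra (cE Ω rb (cE Ω rc f))) x =
      cE Ω ra (fun y => cE Ω rb (cE Ω rc f) y - cE Ω r2 f y) x := by
  have e1 : cE Ω r2 (cE Ω ra (cE Ω rb (cE Ω rc f))) x = cE Ω ra (cE Ω r2 f) x := by
    rw [c2a _ x hx]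
    refine cE_ext Ω ra _ _ (fun y hy => ?_) x
    rw [cE_tower Ω rb r2 hb h2 lb2 _ hy, cE_tower Ω rc r2 hc h2 lc2 f hy]
  have e2 : cE Ω ra (fun y => cE Ω rb (cE Ω rc f) y - cE Ω r2 f y) x =
      cE Ω ra (cE Ω rb (cE Ω rc f)) x - cE Ω ra (cE Ω r2 f) x :=
    cE_sub Ω ra (cE Ω rb (cE Ω rc f)) (cE Ω r2 f) x
  rw [e1, e2]

/-- `g` is invariant under `B` -/
theorem five_ginv_b
    (ha : Equivalence ra) (hb : Equivalence rb)
    (cab : ∀ f : α → ℝ, ∀ x ∈ Ω, cE Ω ra (cE Ω rb f) x = cE Ω rb (cE Ω ra f) x)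
    (f : α → ℝ) {x : α} (hx : x ∈ Ω) :
    cE Ω rb (cE Ω ra (cE Ω rb (cE Ω rc f))) x = cE Ω ra (cE Ω rb (cE Ω rc f)) x := by
  rw [← cab _ x hx]
  exact cE_ext Ω ra _ _ (fun y hy => cE_idem Ω rb hb _ hy) x

end

end Vale.Agent.Lib.P335g
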