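import Vale.Agent.Lib.P335g.JDefs
import Vale.Agent.Lib.P335G.JohnsonF2

/-!
# P335g: bridge from `Lib/P335G/JohnsonF2.lean` (configurations `F → Bool`) to the `JDefs` model
(`k`-subsets of a finset `F`).  Proves `johnson_gap` and `johnson_main`.
-/

namespace Vale.Agent.Lib.P335g
open Finset Vale.Agent.Lib.P335

variable {V : Type} [DecidableEq V]

/-- indicator function of `A` on `F` -/
def jEnc (F : Finset V) (A : Finset V) : F → Bool := fun j => decide (j.1 ∈ A)

/-- the subset of `F` with indicator function `a` -/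
def jDec (F : Finset V) (a : F → Bool) : Finset V :=
  (univ.filter fun j : F => a j = true).map (Function.Embedding.subtype _)

omit [DecidableEq V] in
theorem mem_jDec {F : Finset V} {a : F → Bool} {v : V} :
    v ∈ jDec F a ↔ ∃ h : v ∈ F, a ⟨v, h⟩ = true := by
  unfold jDec
  rw [Finset.mem_map]
  constructor
  · rintro ⟨j, hj, rfl⟩
    rw [mem_filter] at hj
    exact ⟨j.2, hj.2⟩
  · rintro ⟨h, ha⟩
    exact ⟨⟨v, h⟩, by rw [mem_filter]; exact ⟨mem_univ _, ha⟩, rfl⟩

theorem jDec_enc {F A : Finset V} (h : A ⊆ F) : jDec F (jEnc F A) = A := by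
  ext v
  rw [mem_jDec]
  constructor
  · rintro ⟨_, hv⟩
    simpa [jEnc] using hv
  · intro hv
    exact ⟨h hv, by simpa [jEnc] using hv⟩

theorem jEnc_dec {F : Finset V} (a : F → Bool) : jEnc F (jDec F a) = a := by
  funext j
  unfold jEnc
  cases hj : a j with
  | true =>
    rw [decide_eq_true_eq, mem_jDec]
    exact ⟨j.2, hj⟩
  | false =>
    rw [decide_eq_false_iff_not, mem_jDec]
    rintro ⟨_, h⟩
    rw [hj] at h
    exact Bool.noConfusion h

omit [DecidableEq V] in
theorem jDec_sub {F : Finset V} (a : F → Bool) : jDec F a ⊆ F := by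
  intro v hv
  obtain ⟨h, _⟩ := mem_jDec.1 hv
  exact h

omit [DecidableEq V] in
theorem jDec_card {F : Finset V} (a : F → Bool) :
    (jDec F a).card = (univ.filter fun j : F => a j = true).card := by
  unfold jDec; rw [Finset.card_map]

theorem jDec_mem {F : Finset V} {k : ℕ} {a : F → Bool} (h : a ∈ jfLay k) :
    jDec F a ∈ powersetCard k F := by
  rw [mem_powersetCard]
  refine ⟨jDec_sub a, ?_⟩
  rw [jDec_card]
  unfold jfLay at h
  rw [mem_filter] at h
  exact h.2

theorem jEnc_mem {F : Finset V} {k : ℕ} {A : Finset V} (h : A ∈ powersetCard k F) :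
    jEnc F A ∈ jfLay k := by
  rw [mem_powersetCard] at h
  have h1 := jDec_card (jEnc F A)
  rw [jDec_enc h.1, h.2] at h1
  unfold jfLay
  rw [mem_filter]
  exact ⟨mem_univ _, h1.symm⟩

/-- transfer of sums -/
theorem jsum (F : Finset V) (k : ℕ) (G : Finset V → ℝ) :
    ∑ A ∈ powersetCard k F, G A = ∑ a ∈ jfLay (F := F) k, G (jDec F a) := by
  refine Finset.sum_nbij' (jEnc F) (jDec F) (fun A hA => jEnc_mem hA) (fun a ha => jDec_mem ha)
    (fun A hA => jDec_enc (mem_powersetCard.1 hA).1) (fun a _ => jEnc_dec a) ?_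
  intro A hA
  rw [jDec_enc (mem_powersetCard.1 hA).1]

theorem jcard (F : Finset V) (k : ℕ) :
    (powersetCard k F).card = (jfLay (F := F) k).card := by
  refine Finset.card_nbij' (jEnc F) (jDec F) (fun A hA => jEnc_mem hA) (fun a ha => jDec_mem ha)
    (fun A hA => jDec_enc (mem_powersetCard.1 hA).1) (fun a _ => jEnc_dec a)

theorem swap_val {F : Finset V} (x y j : F) :
    (Equiv.swap x y j).1 = Equiv.swap x.1 y.1 j.1 := by
  rw [Equiv.swap_apply_def, Equiv.swap_apply_def]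
  by_cases h1 : j = x
  · subst h1; simp
  · have h1' : j.1 ≠ x.1 := fun h => h1 (Subtype.ext h)
    by_cases h2 : j = y
    · subst h2; simp [h1, h1']
    · have h2' : j.1 ≠ y.1 := fun h => h2 (Subtype.ext h)
      simp [h1, h2, h1', h2']

theorem jDec_tw {F : Finset V} (x y : F) (a : F → Bool) :
    jDec F (jfTw x y a) = jsw x.1 y.1 (jDec F a) := by
  ext v
  unfold jsw
  rw [Finset.mem_map_equiv, Equiv.symm_swap, mem_jDec, mem_jDec]
  constructor
  · rintro ⟨h, hv⟩
    have e := swap_val x y ⟨v, h⟩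
    refine ⟨e ▸ (Equiv.swap x y ⟨v, h⟩).2, ?_⟩
    have : (⟨Equiv.swap x.1 y.1 v, e ▸ (Equiv.swap x y ⟨v, h⟩).2⟩ : F) = Equiv.swap x y ⟨v, h⟩ :=
      Subtype.ext e.symm
    rw [this]; exact hv
  · rintro ⟨h, hv⟩
    have e := swap_val x y ⟨_, h⟩
    simp only [Equiv.swap_apply_self] at e
    have hvF : v ∈ F := e ▸ (Equiv.swap x y ⟨_, h⟩).2
    refine ⟨hvF, ?_⟩
    have : Equiv.swap x y ⟨v, hvF⟩ = (⟨Equiv.swap x.1 y.1 v, h⟩ : F) :=
      Subtype.ext (swap_val x y ⟨v, hvF⟩)
    unfold jfTw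
    rw [this]; exact hv

omit [DecidableEq V] in
theorem jx_dec {F : Finset V} (x y : F) (a : F → Bool) :
    jx x.1 y.1 (jDec F a) ↔ a x ≠ a y := by
  have hx : x.1 ∈ jDec F a ↔ a x = true := by
    rw [mem_jDec]; exact ⟨fun ⟨_, h⟩ => h, fun h => ⟨x.2, h⟩⟩
  have hy : y.1 ∈ jDec F a ↔ a y = true := by
    rw [mem_jDec]; exact ⟨fun ⟨_, h⟩ => h, fun h => ⟨y.2, h⟩⟩
  unfold jx
  rw [hx, hy]
  cases a x <;> cases a y <;> simp


theorem jmean_eq (F : Finset V) (k : ℕ) (u : Finset V → ℝ) :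
    jmean F k u = jfMean (F := F) k (fun a => u (jDec F a)) := by
  unfold jmean jfMean
  rw [jsum, jcard]

theorem jvar_eq (F : Finset V) (k : ℕ) (u : Finset V → ℝ) :
    jvar F k u = ∑ a ∈ jfLay (F := F) k,
      (u (jDec F a) - jfMean (F := F) k (fun a => u (jDec F a))) ^ 2 := by
  unfold jvar
  rw [jsum, jmean_eq]

/-- sums over `JX` -/
theorem jsumX (F : Finset V) (k : ℕ) (x y : F) (G : Finset V → ℝ) :
    ∑ A ∈ JX F k x.1 y.1, G A
      = ∑ a ∈ jfLay (F := F) k, if a x ≠ a y then G (jDec F a) else 0 := by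
  unfold JX
  rw [Finset.sum_filter, jsum]
  refine Finset.sum_congr rfl fun a _ => ?_
  by_cases h : a x ≠ a y
  · rw [if_pos h, if_pos ((jx_dec x y a).2 h)]
  · rw [if_neg h, if_neg (fun h' => h ((jx_dec x y a).1 h'))]

theorem jcardX (F : Finset V) (k : ℕ) (x y : F) :
    ((JX F k x.1 y.1).card : ℝ) = (jfCnt k x y : ℝ) := by
  have h1 := jsumX F k x y (fun _ => (1 : ℝ))
  rw [Finset.sum_const, nsmul_eq_mul, mul_one] at h1
  rw [h1, ← Finset.sum_filter, Finset.sum_const, nsmul_eq_mul, mul_one]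
  rfl

theorem JX_self (F : Finset V) (k : ℕ) (c : V) : JX F k c c = ∅ := by
  unfold JX
  rw [Finset.filter_eq_empty_iff]
  intro A _ h
  unfold jx at h
  tauto

/-- rewriting the double sums over `F` as sums over the subtype -/
theorem jdouble (F : Finset V) (Φ : V → V → ℝ) (h0 : ∀ c, Φ c c = 0) :
    ∑ c ∈ F, ∑ e ∈ F.erase c, Φ c e = ∑ x : F, ∑ y : F, Φ x.1 y.1 := by
  rw [← Finset.sum_coe_sort F (fun c => ∑ e ∈ F.erase c, Φ c e)]
  refine Finset.sum_congr rfl fun x _ => ?_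
  rw [Finset.sum_erase F (h0 x.1), ← Finset.sum_coe_sort F (fun e => Φ x.1 e)]

theorem jD_bridge (F : Finset V) (k : ℕ) (u : Finset V → ℝ) :
    jD F k u = ∑ x : F, ∑ y : F, ∑ a ∈ jfLay (F := F) k,
      (u (jDec F a) - u (jDec F (jfTw x y a))) ^ 2 := by
  unfold jD
  rw [jdouble F (fun c e => ∑ A ∈ JX F k c e, (u A - u (jsw c e A)) ^ 2)
    (fun c => by rw [JX_self]; simp)]
  refine Finset.sum_congr rfl fun x _ => Finset.sum_congr rfl fun y _ => ?_
  rw [jsumX]
  refine Finset.sum_congr rfl fun a _ => ?_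
  by_cases h : a x ≠ a y
  · rw [if_pos h, jDec_tw]
  · rw [if_neg h]
    have h' : a x = a y := by simpa using h
    rw [jfTw_fix h']; simp

theorem jN_bridge (F : Finset V) (k : ℕ) (u : Finset V → ℝ) :
    jN F k u = ∑ x : F, ∑ y : F,
      (∑ b ∈ jfLay (F := F) k, jfXi x y b *
        (u (jDec F b) - jfMean (F := F) k (fun a => u (jDec F a)))) ^ 2 / (jfCnt k x y : ℝ) := by
  unfold jN
  rw [jdouble F (fun c e => ((JX F k c e).card : ℝ) *
    ((∑ A ∈ JX F k c e, u A) / ((JX F k c e).card : ℝ) - jmean F k u) ^ 2)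
    (fun c => by rw [JX_self]; simp)]
  refine Finset.sum_congr rfl fun x _ => Finset.sum_congr rfl fun y _ => ?_
  rw [jcardX, jsumX, jmean_eq]
  set μ := jfMean (F := F) k (fun a => u (jDec F a)) with hμ
  have h1 : ∑ b ∈ jfLay (F := F) k, jfXi x y b * (u (jDec F b) - μ)
      = (∑ a ∈ jfLay (F := F) k, if a x ≠ a y then u (jDec F a) else 0) - (jfCnt k x y : ℝ) * μ := by
    have h2 : (jfCnt k x y : ℝ) * μ = ∑ a ∈ jfLay (F := F) k, if a x ≠ a y then μ else 0 := by
      rw [← Finset.sum_filter, Finset.sum_const, nsmul_eq_mul]; rfl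
    rw [h2, ← Finset.sum_sub_distrib]
    refine Finset.sum_congr rfl fun b _ => ?_
    unfold jfXi
    by_cases h : b x = b y
    · simp [h]
    · simp [h]
  rw [h1]
  by_cases hc : (jfCnt k x y : ℝ) = 0
  · rw [hc]; simp
  · field_simp

/-- J1: Poincare inequality of the Johnson graph with the sharp constant -/
theorem johnson_gap (F : Finset V) (k : ℕ) (u : Finset V → ℝ) :
    4 * (F.card : ℝ) * jvar F k u ≤ jD F k u := by
  have h := Vale.Agent.Lib.P335.johnson_gap (F := F) k (fun a => u (jDec F a))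
  rw [jvar_eq, jD_bridge]
  simpa using h

/-- J3: the fibrewise form of (F2) -/
theorem johnson_main (F : Finset V) (k : ℕ) (u : Finset V → ℝ) :
    jN F k u + 2 * jvar F k u ≤ (1 / 4) * jD F k u := by
  have h := Vale.Agent.Lib.P335.johnson_F2 (F := F) k (fun a => u (jDec F a))
  rw [jvar_eq, jD_bridge, jN_bridge]
  linarith

end Vale.Agent.Lib.P335g
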