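import Mathlib

/-!
# P335g: the Johnson scheme `J(m,k)` (all `k`-subsets `A` of a finite set `F`, `m = |F|`)
Definitions shared by the tasks J0 .. J3.
-/

namespace Vale.Agent.Lib.P335g
open Finset

variable {V : Type} [DecidableEq V]

/-- exactly one of `c`, `e` lies in `A` -/
def jx (c e : V) (A : Finset V) : Prop := (c ∈ A ∧ e ∉ A) ∨ (c ∉ A ∧ e ∈ A)

instance jxDecidable (c e : V) (A : Finset V) : Decidable (jx c e A) :=
  inferInstanceAs (Decidable (_ ∨ _))

/-- the `k`-subsets of `F` that separate `c` and `e` -/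
def JX (F : Finset V) (k : ℕ) (c e : V) : Finset (Finset V) := (powersetCard k F).filter (jx c e)

/-- exchange the two points `c`, `e` in `A` -/
def jsw (c e : V) (A : Finset V) : Finset V := A.map (Equiv.swap c e).toEmbedding

/-- mean of `u` over all `k`-subsets of `F` -/
noncomputable def jmean (F : Finset V) (k : ℕ) (u : Finset V → ℝ) : ℝ :=
  (∑ A ∈ powersetCard k F, u A) / ((powersetCard k F).card : ℝ)

/-- sum of squared deviations from the mean -/
noncomputable def jvar (F : Finset V) (k : ℕ) (u : Finset V → ℝ) : ℝ :=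
  ∑ A ∈ powersetCard k F, (u A - jmean F k u) ^ 2

/-- Dirichlet form over ordered pairs `(c,e)`; this is four times the sum over the edges of the
Johnson graph -/
noncomputable def jD (F : Finset V) (k : ℕ) (u : Finset V → ℝ) : ℝ :=
  ∑ c ∈ F, ∑ e ∈ F.erase c, ∑ A ∈ JX F k c e, (u A - u (jsw c e A)) ^ 2

/-- the `N` terms over ordered pairs `(c,e)` -/
noncomputable def jN (F : Finset V) (k : ℕ) (u : Finset V → ℝ) : ℝ :=
  ∑ c ∈ F, ∑ e ∈ F.erase c, ((JX F k c e).card : ℝ) *
    ((∑ A ∈ JX F k c e, u A) / ((JX F k c e).card : ℝ) - jmean F k u) ^ 2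

/-- the cut function of a weight `z` on pairs -/
noncomputable def jT (F : Finset V) (z : V → V → ℝ) (A : Finset V) : ℝ :=
  ∑ c ∈ A, ∑ e ∈ F \ A, z c e

/-- number of `k`-subsets of an `m`-set that contain one given point and avoid another one -/
def K11 (m k : ℕ) : ℕ := Nat.choose (m - 2) (k - 1)

/-- number of `k`-subsets of an `m`-set that contain two given points and avoid two other ones -/
def K22 (m k : ℕ) : ℕ := if 4 ≤ m ∧ 2 ≤ k then Nat.choose (m - 4) (k - 2) else 0

end Vale.Agent.Lib.P335g
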